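import Vale.Agent.P335.GapFinal

/-!
# P335: the Kannan-Tetali-Vempala conjecture for simple graphs

For every `n >= 4` and every graphical degree vector `d` on `n` vertices the switch chain of the
problem file is within total variation distance `1/4` of the uniform distribution after `n ^ 6`
steps, from every starting graph; hence `tmix d <= n ^ 6`.
-/

namespace Vale.Agent.Results.P335.A0_KTV

open Vale.Agent.P335

theorem result : ∀ n : ℕ, 4 ≤ n → ∀ d : Fin n → ℕ, Nonempty (Omega d) →
    Mixed d (n ^ 6) ∧ tmix d ≤ n ^ 6 := by
  intro n hn d hd
  exact ⟨mixed_of_gap hn d (switchGap d), tmix_le_of_gap hn d (switchGap d)⟩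

end Vale.Agent.Results.P335.A0_KTV
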