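import Vale.Agent.P335.GapFinal

/-!
# P335: the switch graph has spectral gap at least 2, for every degree vector

Poincare inequality for the graph on `Omega d` whose edges are the switches: twice the sum of squared
deviations of `f` from its mean is at most the sum of `(f G - f G')^2` over unordered
switch-adjacent pairs (the double sum over ordered pairs carries the factor `1/2`).
-/

namespace Vale.Agent.Results.P335.A1_SpectralGap

open Vale.Agent.P335

open scoped Classical in
theorem result : ∀ (n : ℕ) (d : Fin n → ℕ) (f : Omega d → ℝ),
    2 * ∑ G, (f G - (∑ H, f H) / (Fintype.card (Omega d) : ℝ)) ^ 2 ≤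
      1 / 2 * ∑ G : Omega d, ∑ G' : Omega d,
        if SwitchAdj G.1 G'.1 then (f G - f G') ^ 2 else 0 := by
  intro n d f
  exact switchGap d f

end Vale.Agent.Results.P335.A1_SpectralGap
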