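import Vale.Agent.Results.P335.A0_KTV
import Vale.Agent.Results.P335.A1_SpectralGap

/-!
# P335: the Kannan-Tetali-Vempala conjecture for simple graphs, with the spectral gap behind it

(1) For every `n >= 4` and every graphical degree vector `d` on `n` vertices the switch chain of
the problem file is within total variation distance `1/4` of the uniform distribution after `n ^ 6`
steps, from every starting graph; hence `tmix d <= n ^ 6`.
(2) Poincare inequality for the graph on `Omega d` whose edges are the switches, with constant 2,
for every degree vector.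
-/

namespace Vale.Agent.Results.P335.A2_Combined

open Vale.Agent.P335

open scoped Classical in
theorem result :
    (∀ n : ℕ, 4 ≤ n → ∀ d : Fin n → ℕ, Nonempty (Omega d) →
      Mixed d (n ^ 6) ∧ tmix d ≤ n ^ 6) ∧
    (∀ (n : ℕ) (d : Fin n → ℕ) (f : Omega d → ℝ),
      2 * ∑ G, (f G - (∑ H, f H) / (Fintype.card (Omega d) : ℝ)) ^ 2 ≤
        1 / 2 * ∑ G : Omega d, ∑ G' : Omega d,
          if SwitchAdj G.1 G'.1 then (f G - f G') ^ 2 else 0) :=
  ⟨Vale.Agent.Results.P335.A0_KTV.result, Vale.Agent.Results.P335.A1_SpectralGap.result⟩

end Vale.Agent.Results.P335.A2_Combined
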