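import Vale.Agent.Results.P335.A0_KTV

namespace Vale.Agent.Results.P335.A2_PolynomialMixing

open Vale.Agent.P335

open scoped Classical

/-- There is a real polynomial `p` such that for all `n ≥ 4` and all graphical `d` the set of
times at which the switch chain is `1/4`-mixed from every start has a least element `T`, and
`T ≤ p(n)`. -/
theorem result : ∃ p : Polynomial ℝ, ∀ n : ℕ, 4 ≤ n → ∀ d : Fin n → ℕ, Nonempty (Omega d) →
    ∃ T : ℕ, IsLeast {t : ℕ | ∀ G : Omega d, tv ((P d ^ t) G) (unif d) ≤ 1 / 4} T ∧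
      (T : ℝ) ≤ p.eval (n : ℝ) := by
  refine ⟨Polynomial.X ^ 6, fun n hn d hd => ?_⟩
  obtain ⟨h1, h2⟩ := Vale.Agent.Results.P335.A0_KTV.result n hn d hd
  refine ⟨tmix d, ⟨mixed_tmix ⟨n ^ 6, h1⟩, fun t ht => tmix_le_of_mixed ht⟩, ?_⟩
  simp only [Polynomial.eval_pow, Polynomial.eval_X]
  exact_mod_cast h2

end Vale.Agent.Results.P335.A2_PolynomialMixing
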